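import Mathlib

/-! # P220, DiagonalSpheres v2, row R3 (row_MJ) -/

set_option autoImplicit false

namespace Vale.Agent.P220.R2.H644

/-- the moment form -/
def MM {V : Type} [NormedAddCommGroup V] [InnerProductSpace ℝ V] (x y p r v w : V) : ℝ :=
  inner ℝ v x * inner ℝ w p - inner ℝ w x * inner ℝ v p +
    (inner ℝ v y * inner ℝ w r - inner ℝ w y * inner ℝ v r)

section
variable {V : Type} [NormedAddCommGroup V] [InnerProductSpace ℝ V]

theorem JJ (J : V ≃ₗᵢ[ℝ] V) (a b : V) : inner ℝ (J a) (J b) = (inner ℝ a b : ℝ) :=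
  J.inner_map_map a b

theorem Jl {J : V ≃ₗᵢ[ℝ] V} (hJ : ∀ x, J (J x) = -x) (a b : V) :
    inner ℝ (J a) b = -(inner ℝ a (J b) : ℝ) := by
  have := JJ J (J a) b
  rw [hJ, inner_neg_left] at this
  linarith

theorem Jself {J : V ≃ₗᵢ[ℝ] V} (hJ : ∀ x, J (J x) = -x) (a : V) :
    inner ℝ (J a) a = (0 : ℝ) := by
  have := Jl hJ a a
  rw [real_inner_comm] at this
  linarith [real_inner_comm a (J a)]

theorem exists_unit [FiniteDimensional ℝ V] (h4 : 4 ≤ Module.finrank ℝ V) (a b : V) :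
    ∃ u : V, ‖u‖ = 1 ∧ inner ℝ a u = (0 : ℝ) ∧ inner ℝ b u = (0 : ℝ) := by
  classical
  have h1 : Module.finrank ℝ (Submodule.span ℝ ({a, b} : Set V)) ≤ 2 := by
    have := finrank_span_finset_le_card (R := ℝ) ({a, b} : Finset V)
    have h2 : ({a, b} : Finset V).card ≤ 2 := Finset.card_le_two
    simp only [Finset.coe_insert, Finset.coe_singleton] at this
    exact this.trans h2
  have h3 := Submodule.finrank_add_finrank_orthogonal (Submodule.span ℝ ({a, b} : Set V))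
  have h5 : 0 < Module.finrank ℝ (Submodule.span ℝ ({a, b} : Set V))ᗮ := by omega
  obtain ⟨⟨w, hw⟩, hw0⟩ := Module.finrank_pos_iff_exists_ne_zero.1 h5
  have hw0' : w ≠ 0 := fun h => hw0 (Subtype.ext h)
  have ha : inner ℝ a w = (0 : ℝ) :=
    (Submodule.mem_orthogonal _ _).1 hw a (Submodule.subset_span (by simp))
  have hb : inner ℝ b w = (0 : ℝ) :=
    (Submodule.mem_orthogonal _ _).1 hw b (Submodule.subset_span (by simp))
  refine ⟨(‖w‖⁻¹ : ℝ) • w, norm_smul_inv_norm hw0', ?_, ?_⟩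
  · rw [inner_smul_right, ha, mul_zero]
  · rw [inner_smul_right, hb, mul_zero]

theorem MM_add (x y p r v w w' : V) :
    MM x y p r v (w + w') = MM x y p r v w + MM x y p r v w' := by
  simp only [MM, inner_add_left]
  ring

theorem MM_smul (x y p r v w : V) (c : ℝ) :
    MM x y p r v (c • w) = c * MM x y p r v w := by
  simp only [MM, real_inner_smul_left]
  ring

theorem MM_smul' (x y p r v w : V) (c : ℝ) :
    MM x y p r (c • v) w = c * MM x y p r v w := by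
  simp only [MM, real_inner_smul_left]
  ring

theorem MM_self (x y p r v : V) : MM x y p r v v = 0 := by
  simp only [MM]
  ring

theorem MM_anti (x y p r v w : V) : MM x y p r w v = -MM x y p r v w := by
  simp only [MM]
  ring

theorem MM_neg (x y p r v w : V) : MM x y p r v (-w) = -MM x y p r v w := by
  simp only [MM, inner_neg_left]
  ring

theorem all_S {J : V ≃ₗᵢ[ℝ] V} (hJ : ∀ x, J (J x) = -x) {x y p r : V}
    (m1 : ∀ v w : V, ‖v‖ = 1 → ‖w‖ = 1 → inner ℝ v w = (0 : ℝ) → inner ℝ v (J w) = (0 : ℝ) →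
      MM x y p r v w + MM x y p r (J v) (J w) = 0)
    (m2 : ∀ v : V, ‖v‖ = 1 → MM x y p r v (J v) = 0) (v w : V) :
    MM x y p r v w + MM x y p r (J v) (J w) = 0 := by
  -- homogeneous versions
  have m2' : ∀ v : V, MM x y p r v (J v) = 0 := by
    intro v
    rcases eq_or_ne v 0 with rfl | hv
    · simp [MM]
    · have h := m2 ((‖v‖⁻¹ : ℝ) • v) (norm_smul_inv_norm hv)
      rw [map_smul, MM_smul, MM_smul'] at h
      have hn : (‖v‖⁻¹ : ℝ) ≠ 0 := inv_ne_zero (norm_ne_zero_iff.2 hv)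
      simpa [hn] using h
  have m1' : ∀ v w : V, inner ℝ v w = (0 : ℝ) → inner ℝ v (J w) = (0 : ℝ) →
      MM x y p r v w + MM x y p r (J v) (J w) = 0 := by
    intro v w h1 h2
    rcases eq_or_ne v 0 with rfl | hv
    · simp [MM]
    rcases eq_or_ne w 0 with rfl | hw
    · simp [MM]
    have h := m1 ((‖v‖⁻¹ : ℝ) • v) ((‖w‖⁻¹ : ℝ) • w) (norm_smul_inv_norm hv)
      (norm_smul_inv_norm hw) (by
        rw [real_inner_smul_left, real_inner_smul_right, h1, mul_zero, mul_zero]) (by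
        rw [map_smul, real_inner_smul_left, real_inner_smul_right, h2, mul_zero, mul_zero])
    rw [map_smul, map_smul, MM_smul, MM_smul', MM_smul, MM_smul'] at h
    have hn : (‖v‖⁻¹ : ℝ) ≠ 0 := inv_ne_zero (norm_ne_zero_iff.2 hv)
    have hn' : (‖w‖⁻¹ : ℝ) ≠ 0 := inv_ne_zero (norm_ne_zero_iff.2 hw)
    have h' : ‖w‖⁻¹ * ‖v‖⁻¹ * (MM x y p r v w + MM x y p r (J v) (J w)) = 0 := by
      linarith
    rcases mul_eq_zero.1 h' with h3 | h3
    · exact absurd h3 (mul_ne_zero hn' hn)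
    · exact h3
  rcases eq_or_ne v 0 with rfl | hv
  · simp [MM]
  have hvv : (inner ℝ v v : ℝ) ≠ 0 := inner_self_ne_zero.2 hv
  obtain ⟨a, ha⟩ : ∃ a : ℝ, a * inner ℝ v v = inner ℝ v w :=
    ⟨inner ℝ v w / inner ℝ v v, div_mul_cancel₀ _ hvv⟩
  obtain ⟨b, hb⟩ : ∃ b : ℝ, b * inner ℝ v v = inner ℝ (J v) w :=
    ⟨inner ℝ (J v) w / inner ℝ v v, div_mul_cancel₀ _ hvv⟩
  obtain ⟨w', hw'⟩ : ∃ w' : V, w = a • v + b • J v + w' := ⟨w - (a • v + b • J v), by abel⟩
  have hs : inner ℝ v (J v) = (0 : ℝ) := by rw [real_inner_comm]; exact Jself hJ v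
  have e1 : inner ℝ v w' = (0 : ℝ) := by
    have : inner ℝ v w = a * inner ℝ v v + b * inner ℝ v (J v) + (inner ℝ v w' : ℝ) := by
      rw [hw', inner_add_right, inner_add_right, real_inner_smul_right, real_inner_smul_right]
    rw [hs] at this
    linarith
  have e2 : inner ℝ (J v) w' = (0 : ℝ) := by
    have : inner ℝ (J v) w = a * inner ℝ (J v) v + b * inner ℝ (J v) (J v) +
        (inner ℝ (J v) w' : ℝ) := by
      rw [hw', inner_add_right, inner_add_right, real_inner_smul_right, real_inner_smul_right]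
    rw [Jself hJ v, JJ] at this
    linarith
  have e3 : inner ℝ v (J w') = (0 : ℝ) := by
    have := Jl hJ v w'
    linarith
  have h1 := m1' v w' e1 e3
  have h2 := m2' v
  rw [hw']
  simp only [map_add, map_smul, hJ]
  rw [MM_add, MM_add, MM_add, MM_add, MM_smul, MM_smul, MM_smul, MM_smul, MM_self, MM_self,
    MM_neg, MM_anti x y p r v (J v), h2]
  linarith

/-- ROW R3 -/
theorem row_MJ [FiniteDimensional ℝ V]
    {J : V ≃ₗᵢ[ℝ] V} (hJ : ∀ x, J (J x) = -x) (h4 : 4 ≤ Module.finrank ℝ V) {x y p r : V}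
    (hn : ‖x‖ ^ 2 + ‖y‖ ^ 2 = 1) (h1 : inner ℝ x y = (0 : ℝ)) (h2 : inner ℝ x (J y) = (0 : ℝ))
    (t1 : (inner ℝ x p + inner ℝ y r : ℝ) = 0) (t2 : (inner ℝ x r + inner ℝ p y : ℝ) = 0)
    (t3 : (inner ℝ x (J r) + inner ℝ p (J y) : ℝ) = 0)
    (m1 : ∀ v w : V, ‖v‖ = 1 → ‖w‖ = 1 → inner ℝ v w = (0 : ℝ) → inner ℝ v (J w) = (0 : ℝ) →
      MM x y p r v w + MM x y p r (J v) (J w) = 0)
    (m2 : ∀ v : V, ‖v‖ = 1 → MM x y p r v (J v) = 0) :
    ∃ e u : V, ‖e‖ = 1 ∧ ‖u‖ = 1 ∧ inner ℝ e u = (0 : ℝ) ∧ inner ℝ e (J u) = (0 : ℝ) ∧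
      (∃ s t : ℝ, x = s • e ∧ p = t • e) ∧ ∃ s t : ℝ, y = s • u ∧ r = t • u := by
  have S := all_S hJ m1 m2
  have hyx : inner ℝ y x = (0 : ℝ) := by rw [real_inner_comm]; exact h1
  have hJyx : inner ℝ (J y) x = (0 : ℝ) := by rw [real_inner_comm]; exact h2
  have hJxy : inner ℝ (J x) y = (0 : ℝ) := by rw [Jl hJ, h2, neg_zero]
  have hJxx := Jself hJ x
  have hJyy := Jself hJ y
  -- (E1), (E2)
  have E1 : ∀ v : V, inner ℝ x x * inner ℝ v p = inner ℝ v x * inner ℝ x p +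
      inner ℝ v y * inner ℝ x r + inner ℝ (J v) x * inner ℝ (J x) p +
      (inner ℝ (J v) y * inner ℝ (J x) r : ℝ) := by
    intro v
    have := S v x
    simp only [MM] at this
    rw [h1, hJxx, hJxy] at this
    linarith
  have E2 : ∀ v : V, inner ℝ y y * inner ℝ v r = inner ℝ v x * inner ℝ y p +
      inner ℝ v y * inner ℝ y r + inner ℝ (J v) x * inner ℝ (J y) p +
      (inner ℝ (J v) y * inner ℝ (J y) r : ℝ) := by
    intro v
    have := S v y
    simp only [MM] at this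
    rw [hyx, hJyy, hJyx] at this
    linarith
  have hxx : (inner ℝ x x : ℝ) = ‖x‖ ^ 2 := real_inner_self_eq_norm_sq x
  have hyy : (inner ℝ y y : ℝ) = ‖y‖ ^ 2 := real_inner_self_eq_norm_sq y
  -- special values
  have f1 : (inner ℝ x x : ℝ) * inner ℝ (J x) p = 0 := by
    have := E1 (J x)
    rw [hJ, inner_neg_left, inner_neg_left, hJxx, hJxy, h1] at this
    linarith
  have f2 : (inner ℝ y y : ℝ) * inner ℝ (J y) r = 0 := by
    have := E2 (J y)
    rw [hJ, inner_neg_left, inner_neg_left, hJyy, hJyx, hyx] at this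
    linarith
  have hsum : (inner ℝ x x : ℝ) + inner ℝ y y = 1 := by rw [hxx, hyy]; exact hn
  have c1 : (inner ℝ p y : ℝ) = inner ℝ y p := real_inner_comm _ _
  have f3 : inner ℝ x r = (0 : ℝ) := by
    have := E1 y
    rw [hyx, hJyx, hJyy] at this
    have e : (inner ℝ y p : ℝ) = -inner ℝ x r := by linarith
    rw [e] at this
    have : (inner ℝ x x + inner ℝ y y : ℝ) * inner ℝ x r = 0 := by linarith
    rwa [hsum, one_mul] at this
  have f4 : inner ℝ y p = (0 : ℝ) := by linarith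
  have c2 : (inner ℝ p (J y) : ℝ) = inner ℝ (J y) p := real_inner_comm _ _
  have c3 : (inner ℝ x (J r) : ℝ) = -inner ℝ (J x) r := by
    have := Jl hJ x r
    linarith
  have f5 : inner ℝ (J y) p = (0 : ℝ) := by
    have := E1 (J y)
    rw [hJ, inner_neg_left, inner_neg_left, hJyy, hJyx, hyx] at this
    have e : (inner ℝ (J x) r : ℝ) = inner ℝ (J y) p := by linarith
    rw [e] at this
    have : (inner ℝ x x + inner ℝ y y : ℝ) * inner ℝ (J y) p = 0 := by linarith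
    rwa [hsum, one_mul] at this
  have f6 : inner ℝ (J x) r = (0 : ℝ) := by linarith
  -- p is a multiple of x
  have gp : x ≠ 0 → ∃ s t : ℝ, x = s • ((‖x‖⁻¹ : ℝ) • x) ∧ p = t • ((‖x‖⁻¹ : ℝ) • x) := by
    intro hx
    have hx0 : (inner ℝ x x : ℝ) ≠ 0 := inner_self_ne_zero.2 hx
    have hnx : ‖x‖ ≠ 0 := norm_ne_zero_iff.2 hx
    have g1 : inner ℝ (J x) p = (0 : ℝ) := (mul_eq_zero.1 f1).resolve_left hx0
    have g2 : (inner ℝ x x : ℝ) • p = (inner ℝ x p : ℝ) • x := by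
      refine ext_inner_left ℝ fun v => ?_
      rw [real_inner_smul_right, real_inner_smul_right, E1 v, f3, g1, f6]
      ring
    refine ⟨‖x‖, (inner ℝ x x : ℝ)⁻¹ * inner ℝ x p * ‖x‖, ?_, ?_⟩
    · rw [smul_smul, mul_inv_cancel₀ hnx, one_smul]
    · rw [smul_smul, mul_assoc, mul_inv_cancel₀ hnx, mul_one, mul_smul, ← g2, smul_smul,
        inv_mul_cancel₀ hx0, one_smul]
  have gr : y ≠ 0 → ∃ s t : ℝ, y = s • ((‖y‖⁻¹ : ℝ) • y) ∧ r = t • ((‖y‖⁻¹ : ℝ) • y) := by
    intro hy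
    have hy0 : (inner ℝ y y : ℝ) ≠ 0 := inner_self_ne_zero.2 hy
    have hny : ‖y‖ ≠ 0 := norm_ne_zero_iff.2 hy
    have g1 : inner ℝ (J y) r = (0 : ℝ) := (mul_eq_zero.1 f2).resolve_left hy0
    have g2 : (inner ℝ y y : ℝ) • r = (inner ℝ y r : ℝ) • y := by
      refine ext_inner_left ℝ fun v => ?_
      rw [real_inner_smul_right, real_inner_smul_right, E2 v, f4, g1, f5]
      ring
    refine ⟨‖y‖, (inner ℝ y y : ℝ)⁻¹ * inner ℝ y r * ‖y‖, ?_, ?_⟩
    · rw [smul_smul, mul_inv_cancel₀ hny, one_smul]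
    · rw [smul_smul, mul_assoc, mul_inv_cancel₀ hny, mul_one, mul_smul, ← g2, smul_smul,
        inv_mul_cancel₀ hy0, one_smul]
  have inn : ∀ (a b : V) (c d : ℝ), inner ℝ a b = (0 : ℝ) → inner ℝ (c • a) (d • b) = (0 : ℝ) := by
    intro a b c d h
    rw [real_inner_smul_left, real_inner_smul_right, h, mul_zero, mul_zero]
  rcases eq_or_ne x 0 with hx | hx
  · have hy : y ≠ 0 := by
      rintro rfl
      rw [hx] at hn
      simp at hn
    rcases eq_or_ne p 0 with hp | hp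
    · obtain ⟨e, he, he1, he2⟩ := exists_unit h4 y (J y)
      refine ⟨e, (‖y‖⁻¹ : ℝ) • y, he, norm_smul_inv_norm hy, ?_, ?_, ⟨0, 0, ?_, ?_⟩, gr hy⟩
      · rw [real_inner_smul_right, real_inner_comm, he1, mul_zero]
      · rw [map_smul, real_inner_smul_right, real_inner_comm, he2, mul_zero]
      · rw [zero_smul]; exact hx
      · rw [zero_smul]; exact hp
    · refine ⟨(‖p‖⁻¹ : ℝ) • p, (‖y‖⁻¹ : ℝ) • y, norm_smul_inv_norm hp, norm_smul_inv_norm hy,
        inn _ _ _ _ (by rw [c1]; exact f4), ?_, ⟨0, ‖p‖, ?_, ?_⟩, gr hy⟩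
      · rw [map_smul]
        exact inn _ _ _ _ (by rw [c2]; exact f5)
      · rw [zero_smul]; exact hx
      · rw [smul_smul, mul_inv_cancel₀ (norm_ne_zero_iff.2 hp), one_smul]
  · rcases eq_or_ne y 0 with hy | hy
    · rcases eq_or_ne r 0 with hr | hr
      · obtain ⟨u, hu, hu1, hu2⟩ := exists_unit h4 x (J x)
        refine ⟨(‖x‖⁻¹ : ℝ) • x, u, norm_smul_inv_norm hx, hu, ?_, ?_, gp hx, ⟨0, 0, ?_, ?_⟩⟩
        · rw [real_inner_smul_left, hu1, mul_zero]
        · rw [real_inner_smul_left]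
          have := Jl hJ x u
          rw [hu2] at this
          have h' : inner ℝ x (J u) = (0 : ℝ) := by linarith
          rw [h', mul_zero]
        · rw [zero_smul]; exact hy
        · rw [zero_smul]; exact hr
      · refine ⟨(‖x‖⁻¹ : ℝ) • x, (‖r‖⁻¹ : ℝ) • r, norm_smul_inv_norm hx, norm_smul_inv_norm hr,
          inn _ _ _ _ f3, ?_, gp hx, ⟨0, ‖r‖, ?_, ?_⟩⟩
        · rw [map_smul]
          exact inn _ _ _ _ (by rw [c3, f6, neg_zero])
        · rw [zero_smul]; exact hy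
        · rw [smul_smul, mul_inv_cancel₀ (norm_ne_zero_iff.2 hr), one_smul]
    · refine ⟨(‖x‖⁻¹ : ℝ) • x, (‖y‖⁻¹ : ℝ) • y, norm_smul_inv_norm hx, norm_smul_inv_norm hy,
        inn _ _ _ _ h1, ?_, gp hx, gr hy⟩
      rw [map_smul]
      exact inn _ _ _ _ h2

end

end Vale.Agent.P220.R2.H644
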